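import Vale.Agent.P195.Basic

/-! From a counterexample to the Auslander-Reiten conjecture to an algebra of infinite
finitistic dimension. -/

namespace Vale.Agent.P176

open CategoryTheory Vale.Agent.P195

section general

variable {L N X : Type} [Ring L] [AddCommGroup N] [Module L N] [AddCommGroup X] [Module L X]

/-- `X` is a direct summand of a finite power of `N`. -/
def InAdd (L N X : Type) [Ring L] [AddCommGroup N] [Module L N] [AddCommGroup X] [Module L X] :
    Prop :=
  ∃ (m : ℕ) (i : Fin m → X →ₗ[L] N) (p : Fin m → N →ₗ[L] X), ∑ j, p j ∘ₗ i j = LinearMap.id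

lemma InAdd.split (h : InAdd L N X) :
    ∃ (m : ℕ) (a : (X →ₗ[L] N) →ₗ[Module.End L N] (Fin m → Module.End L N))
      (b : (Fin m → Module.End L N) →ₗ[Module.End L N] (X →ₗ[L] N)), b ∘ₗ a = LinearMap.id := by
  obtain ⟨m, i, p, hip⟩ := h
  refine ⟨m,
    { toFun := fun f j => f ∘ₗ p j
      map_add' := fun f g => by funext j; rfl
      map_smul' := fun γ f => by funext j; rfl },
    { toFun := fun g => ∑ j, g j ∘ₗ i j
      map_add' := fun f g => by
        rw [← Finset.sum_add_distrib]; rfl
      map_smul' := fun γ f => by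
        rw [Finset.smul_sum]; rfl }, ?_⟩
  ext f x
  have := LinearMap.congr_fun hip x
  simp only [LinearMap.coe_sum, Finset.sum_apply, LinearMap.comp_apply, LinearMap.id_apply] at this
  simp only [LinearMap.comp_apply, LinearMap.coe_mk, AddHom.coe_mk, LinearMap.coe_sum,
    Finset.sum_apply, LinearMap.id_apply]
  rw [← map_sum, this]

lemma InAdd.projective (h : InAdd L N X) : Module.Projective (Module.End L N) (X →ₗ[L] N) := by
  obtain ⟨m, a, b, hab⟩ := h.split
  exact Module.Projective.of_split a b hab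

lemma InAdd.finite (h : InAdd L N X) : Module.Finite (Module.End L N) (X →ₗ[L] N) := by
  obtain ⟨m, a, b, hab⟩ := h.split
  refine Module.Finite.of_surjective b fun f => ⟨a f, ?_⟩
  exact LinearMap.congr_fun hab f

lemma dim_shift_aux {G A B C : Type} [Ring G] [AddCommGroup A] [AddCommGroup B] [AddCommGroup C]
    [Module G A] [Module G B] [Module G C] (f : A →ₗ[G] B) (g : B →ₗ[G] C)
    (hex : Function.Exact f g) (hf : Function.Injective f) (hg : Function.Surjective g)
    (hB : Module.Projective G B) (i : ℕ) :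
    HasProjectiveDimensionLT (ModuleCat.of G C) (i + 2) ↔
      HasProjectiveDimensionLT (ModuleCat.of G A) (i + 1) :=
  (ModuleCat.shortComplex_shortExact
    (ModuleCat.shortComplexOfCompEqZero f g hex.linearMap_comp_eq_zero) hex hf
      hg).hasProjectiveDimensionLT_X₃_iff i ((IsProjective.iff_projective B).1 hB)

end general

variable {k : Type} [Field k] (c : Cex k)

/-- the generator -/
abbrev Gen : Type := c.L × c.M

/-- the algebra of infinite finitistic dimension -/
abbrev Gam : Type := Module.End c.L (Gen c)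

lemma inAdd_M : InAdd c.L (Gen c) c.M :=
  ⟨1, fun _ => LinearMap.inr _ _ _, fun _ => LinearMap.snd _ _ _, by simp⟩

lemma inAdd_Z (n : ℕ) : InAdd c.L (Gen c) (c.Z n) := by
  obtain ⟨m, x, l, h⟩ := exists_dual_basis c.L (c.Z n)
  refine ⟨m, fun j => LinearMap.inl _ _ _ ∘ₗ l j,
    fun j => LinearMap.toSpanSingleton _ _ (x j) ∘ₗ LinearMap.fst _ _ _, ?_⟩
  ext v
  simpa using h v

/-- the coboundary -/
noncomputable def del (n : ℕ) : (c.Z n →ₗ[c.L] Gen c) →ₗ[Gam c] (c.Z (n + 1) →ₗ[c.L] Gen c) :=
  LinearMap.lcomp (Gam c) (Gen c) (c.d n)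

lemma del_apply (n : ℕ) (f : c.Z n →ₗ[c.L] Gen c) : del c n f = f ∘ₗ c.d n := rfl

/-- the cocycles -/
abbrev Coc (n : ℕ) : Type := LinearMap.ker (del c n)

/-- the coboundary with values in cocycles -/
noncomputable def del' (n : ℕ) : (c.Z n →ₗ[c.L] Gen c) →ₗ[Gam c] Coc c (n + 1) :=
  LinearMap.codRestrict _ (del c n) fun f => by
    rw [LinearMap.mem_ker, del_apply, del_apply, LinearMap.comp_assoc,
      (c.exact n).linearMap_comp_eq_zero, LinearMap.comp_zero]

lemma del'_surj (n : ℕ) : Function.Surjective (del' c n) := by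
  rintro ⟨f, hf⟩
  rw [LinearMap.mem_ker, del_apply] at hf
  obtain ⟨b1, h1⟩ := c.vanL n (LinearMap.fst _ _ _ ∘ₗ f) (by rw [LinearMap.comp_assoc, hf]; simp)
  obtain ⟨b2, h2⟩ := c.vanM n (LinearMap.snd _ _ _ ∘ₗ f) (by rw [LinearMap.comp_assoc, hf]; simp)
  refine ⟨b1.prod b2, Subtype.ext ?_⟩
  show del c n (b1.prod b2) = f
  rw [del_apply]
  ext1 x
  have e1 := LinearMap.congr_fun h1 x
  have e2 := LinearMap.congr_fun h2 x
  simp only [LinearMap.comp_apply, LinearMap.fst_apply, LinearMap.snd_apply] at e1 e2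
  simp only [LinearMap.comp_apply, LinearMap.prod_apply, Function.prod]
  exact Prod.ext e1.symm e2.symm

lemma exact_del' (n : ℕ) : Function.Exact (LinearMap.ker (del c n)).subtype (del' c n) := by
  intro f
  constructor
  · intro h
    exact ⟨⟨f, congrArg Subtype.val h⟩, rfl⟩
  · rintro ⟨g, rfl⟩
    exact Subtype.ext g.2

lemma dim_shift (n i : ℕ) :
    HasProjectiveDimensionLT (ModuleCat.of (Gam c) (Coc c (n + 1))) (i + 2) ↔
      HasProjectiveDimensionLT (ModuleCat.of (Gam c) (Coc c n)) (i + 1) :=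
  dim_shift_aux (G := Gam c) (A := Coc c n) (B := c.Z n →ₗ[c.L] Gen c) (C := Coc c (n + 1))
    (LinearMap.ker (del c n)).subtype (del' c n) (exact_del' c n)
    (Submodule.injective_subtype _) (del'_surj c n) (inAdd_Z c n).projective i

lemma factor_eps (f : c.Z 0 →ₗ[c.L] Gen c) (hf : f ∘ₗ c.d 0 = 0) :
    ∃ g : c.M →ₗ[c.L] Gen c, g ∘ₗ c.ε = f := by
  have hker : LinearMap.ker c.ε ≤ LinearMap.ker f := by
    intro x hx
    obtain ⟨y, rfl⟩ := (c.exact0 x).1 hx
    exact LinearMap.congr_fun hf y
  refine ⟨(LinearMap.ker c.ε).liftQ f hker ∘ₗ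
    (c.ε.quotKerEquivOfSurjective c.ε_surj).symm.toLinearMap, ?_⟩
  ext1 x
  simp [LinearMap.quotKerEquivOfSurjective_symm_apply]

lemma coc_zero_projective : Module.Projective (Gam c) (Coc c 0) := by
  have := (inAdd_M c).projective
  let φ : (c.M →ₗ[c.L] Gen c) →ₗ[Gam c] Coc c 0 :=
    LinearMap.codRestrict _ (LinearMap.lcomp (Gam c) (Gen c) c.ε) fun f => by
      rw [LinearMap.mem_ker, del_apply, LinearMap.lcomp_apply', LinearMap.comp_assoc,
        c.exact0.linearMap_comp_eq_zero, LinearMap.comp_zero]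
  have hφ : Function.Bijective φ := by
    constructor
    · intro f g h
      exact LinearMap.lcomp_injective_of_surjective (S := Gam c) c.ε c.ε_surj
        (congrArg Subtype.val h)
    · rintro ⟨f, hf⟩
      obtain ⟨g, hg⟩ := factor_eps c f hf
      exact ⟨g, Subtype.ext hg⟩
  exact Module.Projective.of_equiv (LinearEquiv.ofBijective φ hφ)

lemma coc_one_not_projective : ¬ Module.Projective (Gam c) (Coc c 1) := by
  intro hp
  obtain ⟨σ, hσ⟩ := Module.projective_lifting_property (del' c 0) LinearMap.id (del'_surj c 0)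
  obtain ⟨m, i, p, hip⟩ := inAdd_Z c 0
  have hr : ∀ j, ∃ r : c.M →ₗ[c.L] Gen c, r ∘ₗ c.ε = i j - σ (del' c 0 (i j)) := by
    intro j
    apply factor_eps
    have h1 : del' c 0 (i j - σ (del' c 0 (i j))) = 0 := by
      rw [map_sub]
      have := LinearMap.congr_fun hσ (del' c 0 (i j))
      simp only [LinearMap.comp_apply, LinearMap.id_apply] at this
      rw [this, sub_self]
    exact congrArg Subtype.val h1
  choose r hr using hr
  let v : c.Z 0 →ₗ[c.L] Gen c := LinearMap.inr c.L c.L c.M ∘ₗ c.ε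
  have hv : del' c 0 v = 0 := by
    apply Subtype.ext
    show del c 0 v = 0
    rw [del_apply, LinearMap.comp_assoc, c.exact0.linearMap_comp_eq_zero, LinearMap.comp_zero]
  let γ : Fin m → Gam c := fun j => v ∘ₗ p j
  have hsum : ∑ j, γ j • i j = v := by
    ext1 x
    have := LinearMap.congr_fun hip x
    simp only [LinearMap.coe_sum, Finset.sum_apply, LinearMap.comp_apply,
      LinearMap.id_apply] at this
    simp only [LinearMap.coe_sum, Finset.sum_apply]
    have e : ∀ j, (γ j • i j) x = v (p j (i j x)) := fun j => rfl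
    simp only [e]
    rw [← map_sum, this]
  have key : ∑ j, γ j • (i j - σ (del' c 0 (i j))) = v := by
    simp only [smul_sub, Finset.sum_sub_distrib, ← map_smul, ← map_sum, hsum, hv, map_zero,
      sub_zero]
  have hs : c.ε ∘ₗ (∑ j, p j ∘ₗ r j) = LinearMap.id := by
    ext1 y
    obtain ⟨x, rfl⟩ := c.ε_surj y
    have h1 := LinearMap.congr_fun key x
    simp only [LinearMap.coe_sum, Finset.sum_apply, ← hr] at h1
    have e : ∀ j, (γ j • (r j ∘ₗ c.ε)) x = v (p j (r j (c.ε x))) := fun j => rfl
    simp only [e] at h1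
    rw [← map_sum] at h1
    have h2 := congrArg Prod.snd h1
    simpa [v, Prod.snd_sum] using h2
  exact c.not_proj (Module.Projective.of_split _ _ hs)

lemma dim_coc (n : ℕ) : HasProjectiveDimensionLT (ModuleCat.of (Gam c) (Coc c (n + 1))) (n + 2) ∧
    ¬ HasProjectiveDimensionLT (ModuleCat.of (Gam c) (Coc c (n + 1))) (n + 1) := by
  induction n with
  | zero =>
    constructor
    · exact (dim_shift c 0 0).2 (projective_iff_hasProjectiveDimensionLT_one.1
        ((IsProjective.iff_projective _).1 (coc_zero_projective c)))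
    · intro h
      exact coc_one_not_projective c ((IsProjective.iff_projective _).2
        (projective_iff_hasProjectiveDimensionLT_one.2 h))
  | succ n ih =>
    exact ⟨(dim_shift c (n + 1) (n + 1)).2 ih.1, fun h => ih.2 ((dim_shift c (n + 1) n).1 h)⟩

lemma pd_coc (n : ℕ) :
    projectiveDimension (ModuleCat.of (Gam c) (Coc c (n + 1))) = ((n + 1 : ℕ) : WithBot ℕ∞) :=
  le_antisymm ((projectiveDimension_le_iff _ _).2 (dim_coc c n).1)
    ((projectiveDimension_ge_iff _ _).2 (dim_coc c n).2)

lemma finite_coc (n : ℕ) : Module.Finite (Gam c) (Coc c (n + 1)) := by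
  have := (inAdd_Z c n).finite
  exact Module.Finite.of_surjective (del' c n) (del'_surj c n)

theorem findim_infinite_of_cex (c : Cex k) :
    ∃ (A : Type) (_ : Ring A) (_ : Algebra k A), FiniteDimensional k A ∧
      ∀ n : ℕ, 0 < n → ∃ M : ModuleCat.{0} A, Module.Finite A M ∧
        projectiveDimension M = (n : WithBot ℕ∞) := by
  let : Module k c.M := Module.compHom c.M (algebraMap k c.L)
  have : IsScalarTower k c.L c.M := IsScalarTower.of_algebraMap_smul fun _ _ => rfl
  have : Module.Finite c.L c.M := Module.Finite.of_surjective c.ε c.ε_surj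
  have : Module.Finite k c.M := Module.Finite.trans c.L c.M
  refine ⟨Gam c, inferInstance, inferInstance, ?_, ?_⟩
  · exact Module.Finite.of_injective (LinearMap.restrictScalarsₗ k c.L (Gen c) (Gen c) k)
      (LinearMap.restrictScalars_injective k)
  · intro n hn
    obtain ⟨n, rfl⟩ := Nat.exists_eq_succ_of_ne_zero hn.ne'
    exact ⟨ModuleCat.of (Gam c) (Coc c (n + 1)), finite_coc c n, pd_coc c n⟩

end Vale.Agent.P176
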